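import Mathlib
import Vale.Agent.Lib.P076.Defs
import Vale.Agent.Lib.P076.Sparse

open MeasureTheory Vale.Agent.Lib.P076

/-- Carleson's problem, positive answer for data with sparse energy spectrum, at every regularity
`s > 0` (in particular at the endpoint `s = n / (2 (n + 1))`).  Here `E` is any finite dimensional
real inner product space with Lebesgue measure, e.g. `E = EuclideanSpace ℝ (Fin n)`, i.e. `ℝⁿ`.
If `f ∈ H^s(E)` and `f̂` vanishes a.e. outside the shells `j ≤ |ξ|² < j + 1`, `j ∈ Λ`, where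
`∑_{j ∈ Λ} (1 + j)^{-s} < ∞`, then `e^{itΔ} f(x) → f(x)` for a.e. `x`, in the sense of the
problem. -/
theorem Vale.Agent.Results.P076.SparseEnergy.result
    {E : Type*} [NormedAddCommGroup E] [InnerProductSpace ℝ E] [FiniteDimensional ℝ E]
    [MeasurableSpace E] [BorelSpace E]
    (s : ℝ) (hs : 0 < s) (f : Lp ℂ 2 (volume : Measure E)) (hf : MemHs s f) (Λ : Set ℕ)
    (hΛ : Summable (fun j : Λ => (1 + ((j : ℕ) : ℝ)) ^ (-s)))
    (hsupp : ∀ᵐ ξ : E, hat f ξ ≠ 0 → ∃ j ∈ Λ, (j : ℝ) ≤ ‖ξ‖ ^ 2 ∧ ‖ξ‖ ^ 2 < j + 1) :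
    ∀ᵐ x : E, ConvergesAt f x :=
  ae_convergesAt_of_window f (window_sum_of_sparse s hs f hf Λ hΛ hsupp)
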